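import Vale.Agent.P183.R2.H668.KW.Spec

set_option autoImplicit false

/-!
Row B: the number of graphs without four-cycles (from the bound on neighbourhoods, row A).
-/

namespace Vale.Agent.P183.R2.H786

open Finset Vale.Agent.P183.R2.H668.KW

lemma card_biUnion_real {ι β : Type*} [DecidableEq β] (s : Finset ι) (f : ι → Finset β) (a : ℝ)
    (h : ∀ i ∈ s, ((f i).card : ℝ) ≤ a) : ((s.biUnion f).card : ℝ) ≤ s.card * a := by
  calc ((s.biUnion f).card : ℝ) ≤ ((∑ i ∈ s, (f i).card : ℕ) : ℝ) := by
        exact_mod_cast Finset.card_biUnion_le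
    _ = ∑ i ∈ s, ((f i).card : ℝ) := by push_cast; rfl
    _ ≤ ∑ i ∈ s, a := Finset.sum_le_sum h
    _ = s.card * a := by simp

section

variable {V : Type} [Finite V]

/-- graphs without four-cycles with all edges in `T` -/
noncomputable def FF (T : Finset V) : Finset (SimpleGraph V) :=
  (Set.toFinite {G : SimpleGraph V | C4Free G ∧ ∀ x y, G.Adj x y → x ∈ T}).toFinset

/-- the possible neighbourhoods as a finset -/
noncomputable def NN (G : SimpleGraph V) (T : Finset V) : Finset (Finset V) :=
  (Set.toFinite (nbhds G T)).toFinset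

/-- adding the vertex `v` with neighbourhood `I` -/
def addV (v : V) (G : SimpleGraph V) (I : Finset V) : SimpleGraph V :=
  SimpleGraph.fromRel fun x y => G.Adj x y ∨ (x = v ∧ y ∈ I)

/-- removing the edges at `v` -/
def delV (G : SimpleGraph V) (v : V) : SimpleGraph V where
  Adj x y := G.Adj x y ∧ x ≠ v ∧ y ≠ v
  symm := ⟨fun _ _ h => ⟨h.1.symm, h.2.2, h.2.1⟩⟩
  loopless := ⟨fun x h => G.loopless.irrefl x h.1⟩

open Classical in
lemma mem_cover (T : Finset V) (hT : T.Nonempty) (G : SimpleGraph V) (hG : G ∈ FF T) :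
    G ∈ T.biUnion fun v => (FF (T.erase v)).biUnion fun G' =>
      (NN G' (T.erase v)).image (addV v G') := by
  obtain ⟨hC, hE⟩ : C4Free G ∧ ∀ x y, G.Adj x y → x ∈ T := by simpa [FF] using hG
  obtain ⟨v, hv, hmin⟩ := Finset.exists_min_image T (fun x => {y | G.Adj x y}.ncard) hT
  have : Fintype V := Fintype.ofFinite V
  refine Finset.mem_biUnion.2 ⟨v, hv, Finset.mem_biUnion.2 ⟨delV G v, ?_, ?_⟩⟩
  · simp only [FF, Set.Finite.mem_toFinset, Set.mem_ofPred_eq]
    refine ⟨fun u w x y huw h1 h2 h3 h4 => hC u w x y huw h1.1 h2.1 h3.1 h4.1, fun x y h => ?_⟩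
    exact Finset.mem_erase.2 ⟨h.2.1, hE x y h.1⟩
  · refine Finset.mem_image.2 ⟨Finset.univ.filter (fun y => G.Adj v y), ?_, ?_⟩
    · simp only [NN, Set.Finite.mem_toFinset, nbhds, Set.mem_ofPred_eq]
      refine ⟨fun y hy => ?_, fun x hx => ?_, fun x hx y hy hxy => ?_⟩
      · have h : G.Adj v y := by simpa using hy
        exact Finset.mem_erase.2 ⟨h.ne', hE y v h.symm⟩
      · have h1 := hmin x (Finset.mem_of_mem_erase hx)
        have h2 : (Finset.univ.filter (fun y => G.Adj v y)).card = {y | G.Adj v y}.ncard := by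
          rw [Set.ncard_eq_toFinset_card']
          congr 1
          ext y
          simp
        rw [h2]
        refine h1.trans ?_
        have h3 : {y | G.Adj x y} ⊆ {y | (delV G v).Adj x y} ∪ {v} := by
          intro y hy
          rcases eq_or_ne y v with h | h
          · right; exact h
          · left
            exact ⟨hy, Finset.ne_of_mem_erase hx, h⟩
        calc {y | G.Adj x y}.ncard ≤ ({y | (delV G v).Adj x y} ∪ {v}).ncard :=
              Set.ncard_le_ncard h3 (Set.toFinite _)
          _ ≤ {y | (delV G v).Adj x y}.ncard + ({v} : Set V).ncard := Set.ncard_union_le _ _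
          _ = _ := by rw [Set.ncard_singleton]
      · rintro ⟨w, hw1, hw2⟩
        have h1 : G.Adj v x := by simpa using hx
        have h2 : G.Adj v y := by simpa using hy
        exact hxy (hC v w x y (Ne.symm hw1.2.1) h1 hw1.1 h2 hw2.1)
    · ext x y
      simp only [addV, delV, SimpleGraph.fromRel_adj, Finset.mem_filter, Finset.mem_univ, true_and]
      constructor
      · rintro ⟨hne, (h | h) | (h | h)⟩
        · exact h.1
        · rw [h.1]; exact h.2
        · exact h.1.symm
        · rw [h.1]; exact h.2.symm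
      · intro h
        refine ⟨h.ne, ?_⟩
        rcases eq_or_ne x v with hx | hx
        · left; right
          rw [← hx]
          exact ⟨rfl, h⟩
        · rcases eq_or_ne y v with hy | hy
          · right; right
            rw [← hy]
            exact ⟨rfl, h.symm⟩
          · left; left
            exact ⟨h, hx, hy⟩

end

lemma rpow_three_halves {x : ℝ} (hx : 0 ≤ x) : x ^ (3 / 2 : ℝ) = x * √x := by
  rcases hx.eq_or_lt with h | h
  · rw [← h, Real.zero_rpow (by norm_num), zero_mul]
  · rw [show (3 / 2 : ℝ) = 1 + 1 / 2 by norm_num, Real.rpow_add h, Real.rpow_one,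
      Real.sqrt_eq_rpow]

lemma numer {C : ℝ} (hC : 0 < C) (t : ℕ) :
    ((t : ℝ) + 1) * (Real.exp ((C + 2) * (t : ℝ) ^ (3 / 2 : ℝ)) *
      Real.exp (C * (t : ℝ) ^ (1 / 2 : ℝ))) ≤
      Real.exp ((C + 2) * ((t : ℝ) + 1) ^ (3 / 2 : ℝ)) := by
  have ht : (0 : ℝ) ≤ t := Nat.cast_nonneg t
  rw [rpow_three_halves ht, rpow_three_halves (by linarith : (0 : ℝ) ≤ t + 1),
    ← Real.sqrt_eq_rpow]
  set s := √((t : ℝ) + 1) with hs
  have hs0 : 0 ≤ s := Real.sqrt_nonneg _
  have hss : s * s = t + 1 := Real.mul_self_sqrt (by linarith)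
  have h1 : √(t : ℝ) ≤ s := Real.sqrt_le_sqrt (by linarith)
  have h2 : s ≤ Real.exp s := by linarith [Real.add_one_le_exp s]
  have h3 : (t : ℝ) + 1 ≤ Real.exp (2 * s) := by
    rw [← hss, two_mul, Real.exp_add]
    exact mul_le_mul h2 h2 hs0 (Real.exp_pos _).le
  calc ((t : ℝ) + 1) * (Real.exp ((C + 2) * (t * √(t : ℝ))) * Real.exp (C * √(t : ℝ)))
      ≤ Real.exp (2 * s) * (Real.exp ((C + 2) * (t * s)) * Real.exp (C * s)) := by
        gcongr
    _ = Real.exp ((C + 2) * ((t + 1) * s)) := by
        rw [← Real.exp_add, ← Real.exp_add]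
        congr 1
        ring

lemma main {C : ℝ} (hC : 0 < C) (h : ∀ (V : Type) [Finite V] (G : SimpleGraph V), C4Free G →
    ∀ T : Finset V, (∀ x y, G.Adj x y → x ∈ T) →
      ((nbhds G T).ncard : ℝ) ≤ Real.exp (C * (T.card : ℝ) ^ (1 / 2 : ℝ)))
    (V : Type) [Finite V] : ∀ (t : ℕ) (T : Finset V), T.card = t →
      ((FF T).card : ℝ) ≤ Real.exp ((C + 2) * (t : ℝ) ^ (3 / 2 : ℝ)) := by
  classical
  intro t
  induction t with
  | zero =>
    intro T hT
    have hT' : T = ∅ := Finset.card_eq_zero.1 hT
    have h1 : FF T ⊆ {⊥} := by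
      intro G hG
      obtain ⟨_, hE⟩ : C4Free G ∧ ∀ x y, G.Adj x y → x ∈ T := by simpa [FF] using hG
      rw [Finset.mem_singleton]
      ext x y
      constructor
      · intro hxy
        have := hE x y hxy
        rw [hT'] at this
        exact absurd this (Finset.notMem_empty _)
      · intro hxy
        exact absurd hxy (by simp)
    have h2 : (FF T).card ≤ 1 := by simpa using Finset.card_le_card h1
    have h3 : ((FF T).card : ℝ) ≤ 1 := by exact_mod_cast h2
    refine h3.trans ?_
    simp
  | succ t ih =>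
    intro T hT
    have hne : T.Nonempty := Finset.card_pos.1 (by omega)
    have h1 : FF T ⊆ T.biUnion fun v => (FF (T.erase v)).biUnion fun G' =>
        (NN G' (T.erase v)).image (addV v G') := fun G hG => mem_cover T hne G hG
    have h2 : ((FF T).card : ℝ) ≤ ((T.biUnion fun v => (FF (T.erase v)).biUnion fun G' =>
        (NN G' (T.erase v)).image (addV v G')).card : ℝ) := by
      exact_mod_cast Finset.card_le_card h1
    refine h2.trans ?_
    refine (card_biUnion_real _ _ (Real.exp ((C + 2) * (t : ℝ) ^ (3 / 2 : ℝ)) *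
      Real.exp (C * (t : ℝ) ^ (1 / 2 : ℝ))) fun v hv => ?_).trans ?_
    · have hc : (T.erase v).card = t := by
        rw [Finset.card_erase_of_mem hv, hT]; rfl
      refine (card_biUnion_real _ _ (Real.exp (C * (t : ℝ) ^ (1 / 2 : ℝ))) fun G' hG' => ?_).trans ?_
      · obtain ⟨hC', hE'⟩ : C4Free G' ∧ ∀ x y, G'.Adj x y → x ∈ T.erase v := by
          have := hG'
          simp only [FF, Set.Finite.mem_toFinset, Set.mem_ofPred_eq] at this
          exact this
        have g1 : (((NN G' (T.erase v)).image (addV v G')).card : ℝ) ≤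
            ((NN G' (T.erase v)).card : ℝ) := by
          exact_mod_cast Finset.card_image_le
        refine g1.trans ?_
        have g2 := h V G' hC' (T.erase v) hE'
        rw [Set.ncard_eq_toFinset_card _ (Set.toFinite _), hc] at g2
        exact g2
      · exact mul_le_mul_of_nonneg_right (ih _ hc) (Real.exp_pos _).le
    · rw [hT]
      have := numer hC t
      push_cast
      exact this

theorem rowB (hA : StA) : StB := by
  obtain ⟨C, hC, h⟩ := hA
  refine ⟨C + 2, by linarith, fun V _ => ?_⟩
  have : Fintype V := Fintype.ofFinite V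
  have h1 := main hC h V (Finset.univ : Finset V).card Finset.univ rfl
  have h2 : {G : SimpleGraph V | C4Free G}.ncard = (FF (Finset.univ : Finset V)).card := by
    rw [Set.ncard_eq_toFinset_card _ (Set.toFinite _)]
    congr 1
    ext G
    simp [FF]
  rw [h2, Nat.card_eq_fintype_card]
  exact h1

end Vale.Agent.P183.R2.H786
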